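import Mathlib

/-! Row R3 (row_MJ) of the complex analogue. -/

open Set Filter Topology

namespace Vale.Agent.P220.R2.H3

/-- the moment form -/
def MM {V : Type} [NormedAddCommGroup V] [InnerProductSpace ℝ V] (x y p r v w : V) : ℝ :=
  inner ℝ v x * inner ℝ w p - inner ℝ w x * inner ℝ v p +
    (inner ℝ v y * inner ℝ w r - inner ℝ w y * inner ℝ v r)

theorem JJ_left {V : Type} [NormedAddCommGroup V] [InnerProductSpace ℝ V]
    {J : V ≃ₗᵢ[ℝ] V} (hJ : ∀ x, J (J x) = -x) (a b : V) :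
    (inner ℝ (J a) b : ℝ) = - inner ℝ a (J b) := by
  rw [← J.inner_map_map (J a) b, hJ, inner_neg_left]

theorem J_self {V : Type} [NormedAddCommGroup V] [InnerProductSpace ℝ V]
    {J : V ≃ₗᵢ[ℝ] V} (hJ : ∀ x, J (J x) = -x) (a : V) : (inner ℝ a (J a) : ℝ) = 0 := by
  have h := JJ_left hJ a a
  rw [real_inner_comm] at h
  linarith

/-- a nonzero vector and an orthogonal one lie on two orthogonal complex axes -/
theorem exists_axesJ {V : Type} [NormedAddCommGroup V] [InnerProductSpace ℝ V]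
    [FiniteDimensional ℝ V] {J : V ≃ₗᵢ[ℝ] V} (hJ : ∀ x, J (J x) = -x)
    (h4 : 4 ≤ Module.finrank ℝ V) {p q : V} (hp : p ≠ 0)
    (hpq : inner ℝ p q = (0 : ℝ)) (hpJ : inner ℝ p (J q) = (0 : ℝ)) :
    ∃ e u : V, ‖e‖ = 1 ∧ ‖u‖ = 1 ∧ inner ℝ e u = (0 : ℝ) ∧ inner ℝ e (J u) = (0 : ℝ) ∧
      (∃ x : ℝ, p = x • e) ∧ ∃ y : ℝ, q = y • u := by
  have hp' : ‖p‖ ≠ 0 := norm_ne_zero_iff.2 hp
  have e1 : ‖(‖p‖⁻¹ : ℝ) • p‖ = 1 := by
    rw [norm_smul, norm_inv, norm_norm, inv_mul_cancel₀ hp']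
  by_cases hq : q = 0
  · obtain ⟨w, hw, hw0⟩ : ∃ w ∈ (Submodule.span ℝ (range ![p, J p]))ᗮ, w ≠ 0 := by
      rw [← Submodule.ne_bot_iff]
      intro h
      have h3 := Submodule.finrank_add_finrank_orthogonal (Submodule.span ℝ (range ![p, J p]))
      have h5 : Module.finrank ℝ (Submodule.span ℝ (range ![p, J p])) ≤ 2 := by
        have := finrank_range_le_card (R := ℝ) ![p, J p]
        simpa [Set.finrank] using this
      rw [h, finrank_bot] at h3
      omega
    have hw' : ‖w‖ ≠ 0 := norm_ne_zero_iff.2 hw0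
    have hw1 := (Submodule.mem_orthogonal _ _).1 hw
    have hpw : inner ℝ p w = (0 : ℝ) := hw1 p (Submodule.subset_span ⟨0, rfl⟩)
    have hJw : inner ℝ (J p) w = (0 : ℝ) := hw1 (J p) (Submodule.subset_span ⟨1, rfl⟩)
    have hpJw : inner ℝ p (J w) = (0 : ℝ) := by
      rw [JJ_left hJ] at hJw
      linarith
    refine ⟨(‖p‖⁻¹ : ℝ) • p, (‖w‖⁻¹ : ℝ) • w, e1, ?_, ?_, ?_, ⟨‖p‖, ?_⟩, ⟨0, ?_⟩⟩
    · rw [norm_smul, norm_inv, norm_norm, inv_mul_cancel₀ hw']
    · rw [inner_smul_left, inner_smul_right, hpw]; simp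
    · rw [map_smul, inner_smul_left, inner_smul_right, hpJw]; simp
    · rw [smul_smul, mul_inv_cancel₀ hp', one_smul]
    · rw [hq, zero_smul]
  · have hq' : ‖q‖ ≠ 0 := norm_ne_zero_iff.2 hq
    refine ⟨(‖p‖⁻¹ : ℝ) • p, (‖q‖⁻¹ : ℝ) • q, e1, ?_, ?_, ?_, ⟨‖p‖, ?_⟩, ⟨‖q‖, ?_⟩⟩
    · rw [norm_smul, norm_inv, norm_norm, inv_mul_cancel₀ hq']
    · rw [inner_smul_left, inner_smul_right, hpq]; simp
    · rw [map_smul, inner_smul_left, inner_smul_right, hpJ]; simp
    · rw [smul_smul, mul_inv_cancel₀ hp', one_smul]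
    · rw [smul_smul, mul_inv_cancel₀ hq', one_smul]

theorem row_MJ {V : Type} [NormedAddCommGroup V] [InnerProductSpace ℝ V] [FiniteDimensional ℝ V]
    {J : V ≃ₗᵢ[ℝ] V} (hJ : ∀ x, J (J x) = -x) (h4 : 4 ≤ Module.finrank ℝ V) {x y p r : V}
    (hn : ‖x‖ ^ 2 + ‖y‖ ^ 2 = 1) (h1 : inner ℝ x y = (0 : ℝ)) (h2 : inner ℝ x (J y) = (0 : ℝ))
    (t1 : (inner ℝ x p + inner ℝ y r : ℝ) = 0) (t2 : (inner ℝ x r + inner ℝ p y : ℝ) = 0)
    (t3 : (inner ℝ x (J r) + inner ℝ p (J y) : ℝ) = 0)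
    (m1 : ∀ v w : V, ‖v‖ = 1 → ‖w‖ = 1 → inner ℝ v w = (0 : ℝ) → inner ℝ v (J w) = (0 : ℝ) →
      MM x y p r v w + MM x y p r (J v) (J w) = 0)
    (m2 : ∀ v : V, ‖v‖ = 1 → MM x y p r v (J v) = 0) :
    ∃ e u : V, ‖e‖ = 1 ∧ ‖u‖ = 1 ∧ inner ℝ e u = (0 : ℝ) ∧ inner ℝ e (J u) = (0 : ℝ) ∧
      (∃ s t : ℝ, x = s • e ∧ p = t • e) ∧ ∃ s t : ℝ, y = s • u ∧ r = t • u := by
  have hmul : ∀ (a b : ℝ) (v w : V), MM x y p r (a • v) (b • w) = a * b * MM x y p r v w := by
    intro a b v w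
    simp only [MM, inner_smul_left, RCLike.conj_to_real]
    ring
  have hadd : ∀ (v w w' : V), MM x y p r v (w + w') = MM x y p r v w + MM x y p r v w' := by
    intro v w w'
    simp only [MM, inner_add_left]
    ring
  have hself : ∀ v : V, MM x y p r v v = 0 := by
    intro v
    simp only [MM]
    ring
  have hneg : ∀ v w : V, MM x y p r w (-v) = MM x y p r v w := by
    intro v w
    simp only [MM, inner_neg_left]
    ring
  -- S(v, J v) = 0
  have s2 : ∀ v : V, MM x y p r v (J v) = 0 := by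
    intro v
    by_cases hv : v = 0
    · subst hv
      simp [MM]
    have hv' : ‖v‖ ≠ 0 := norm_ne_zero_iff.2 hv
    have h := m2 ((‖v‖⁻¹ : ℝ) • v) (by
      rw [norm_smul, norm_inv, norm_norm, inv_mul_cancel₀ hv'])
    rw [map_smul, hmul] at h
    exact (mul_eq_zero.1 h).resolve_left (mul_ne_zero (inv_ne_zero hv') (inv_ne_zero hv'))
  have s1 : ∀ v w : V, inner ℝ v w = (0 : ℝ) → inner ℝ v (J w) = (0 : ℝ) →
      MM x y p r v w + MM x y p r (J v) (J w) = 0 := by
    intro v w hvw hvJ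
    by_cases hv : v = 0
    · subst hv
      simp [MM]
    by_cases hw : w = 0
    · subst hw
      simp [MM]
    have hv' : ‖v‖ ≠ 0 := norm_ne_zero_iff.2 hv
    have hw' : ‖w‖ ≠ 0 := norm_ne_zero_iff.2 hw
    have h := m1 ((‖v‖⁻¹ : ℝ) • v) ((‖w‖⁻¹ : ℝ) • w)
      (by rw [norm_smul, norm_inv, norm_norm, inv_mul_cancel₀ hv'])
      (by rw [norm_smul, norm_inv, norm_norm, inv_mul_cancel₀ hw'])
      (by rw [inner_smul_left, inner_smul_right, hvw]; simp)
      (by rw [map_smul, inner_smul_left, inner_smul_right, hvJ]; simp)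
    rw [map_smul, map_smul, hmul, hmul, ← mul_add] at h
    exact (mul_eq_zero.1 h).resolve_left (mul_ne_zero (inv_ne_zero hv') (inv_ne_zero hw'))
  have s3 : ∀ v w : V, MM x y p r v w + MM x y p r (J v) (J w) = 0 := by
    intro v w
    by_cases hv : v = 0
    · subst hv
      simp [MM]
    have hvv : (inner ℝ v v : ℝ) ≠ 0 := inner_self_ne_zero.2 hv
    have hJv : (inner ℝ v (J v) : ℝ) = 0 := J_self hJ v
    have hJv' : (inner ℝ (J v) v : ℝ) = 0 := by rw [real_inner_comm]; exact hJv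
    have hJJ : (inner ℝ (J v) (J v) : ℝ) = inner ℝ v v := J.inner_map_map v v
    set α : ℝ := inner ℝ v w / inner ℝ v v with hα
    set β : ℝ := inner ℝ (J v) w / inner ℝ v v with hβ
    set w' : V := w - α • v - β • J v with hw'
    have hα' : α * inner ℝ v v = inner ℝ v w := div_mul_cancel₀ _ hvv
    have hβ' : β * inner ℝ v v = inner ℝ (J v) w := div_mul_cancel₀ _ hvv
    have o1 : (inner ℝ v w' : ℝ) = 0 := by
      rw [hw', inner_sub_right, inner_sub_right, inner_smul_right, inner_smul_right, hJv, hα']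
      ring
    have o2 : (inner ℝ v (J w') : ℝ) = 0 := by
      have h5 : (inner ℝ (J v) w' : ℝ) = 0 := by
        rw [hw', inner_sub_right, inner_sub_right, inner_smul_right, inner_smul_right, hJv', hJJ,
          hβ']
        ring
      rw [JJ_left hJ] at h5
      linarith
    have h := s1 v w' o1 o2
    have hw : w = w' + (α • v + β • J v) := by rw [hw']; abel
    have e1 : MM x y p r v (α • v + β • J v) = 0 := by
      rw [hadd]
      have a1 := hmul 1 α v v
      have a2 := hmul 1 β v (J v)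
      rw [one_smul] at a1 a2
      rw [a1, a2, hself, s2]
      ring
    have e2 : MM x y p r (J v) (J (α • v + β • J v)) = 0 := by
      rw [map_add, map_smul, map_smul, hJ, hadd]
      have a1 := hmul 1 α (J v) (J v)
      have a2 := hmul 1 β (J v) (-v)
      rw [one_smul] at a1 a2
      rw [a1, a2, hself, hneg, s2]
      ring
    have b1 : MM x y p r v w = MM x y p r v w' := by
      rw [hw, hadd, e1, add_zero]
    have b2 : MM x y p r (J v) (J w) = MM x y p r (J v) (J w') := by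
      rw [hw, map_add, hadd, e2, add_zero]
    rw [b1, b2]
    exact h
  -- consequences
  have hyx : inner ℝ y x = (0 : ℝ) := by rw [real_inner_comm]; exact h1
  have hyJx : inner ℝ y (J x) = (0 : ℝ) := by
    rw [real_inner_comm, JJ_left hJ, h2, neg_zero]
  have hxJx := J_self hJ x
  have hyJy := J_self hJ y
  have hxx : (inner ℝ x x : ℝ) = ‖x‖ ^ 2 := real_inner_self_eq_norm_sq x
  have hyy : (inner ℝ y y : ℝ) = ‖y‖ ^ 2 := real_inner_self_eq_norm_sq y
  have px : (inner ℝ x x : ℝ) • p = (inner ℝ x p : ℝ) • x + (inner ℝ x r : ℝ) • y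
      + (inner ℝ x (J p) : ℝ) • J x + (inner ℝ x (J r) : ℝ) • J y := by
    refine ext_inner_left ℝ fun v => ?_
    have h := s3 v x
    simp only [MM, JJ_left hJ] at h
    rw [h1, hxJx, h2] at h
    simp only [inner_smul_right, inner_add_right]
    linear_combination -h
  have py : (inner ℝ y y : ℝ) • r = (inner ℝ y p : ℝ) • x + (inner ℝ y r : ℝ) • y
      + (inner ℝ y (J p) : ℝ) • J x + (inner ℝ y (J r) : ℝ) • J y := by
    refine ext_inner_left ℝ fun v => ?_
    have h := s3 v y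
    simp only [MM, JJ_left hJ] at h
    rw [hyx, hyJy, hyJx] at h
    simp only [inner_smul_right, inner_add_right]
    linear_combination -h
  have hJxx : (inner ℝ (J x) (J x) : ℝ) = inner ℝ x x := J.inner_map_map x x
  have hJyy : (inner ℝ (J y) (J y) : ℝ) = inner ℝ y y := J.inner_map_map y y
  have hJxy : (inner ℝ (J x) (J y) : ℝ) = 0 := by rw [J.inner_map_map]; exact h1
  have hJyx : (inner ℝ (J y) (J x) : ℝ) = 0 := by rw [J.inner_map_map]; exact hyx
  have q1 : (inner ℝ x (J p) : ℝ) = 0 := by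
    have h := congrArg (fun z => (inner ℝ (J x) z : ℝ)) px
    simp only [inner_smul_right, inner_add_right, hJxx, hJxy] at h
    simp only [JJ_left hJ] at h
    rw [hxJx, h2] at h
    by_cases hx : x = 0
    · rw [hx, inner_zero_left]
    · have hxx' : (inner ℝ x x : ℝ) ≠ 0 := inner_self_ne_zero.2 hx
      have h5 : (inner ℝ x x : ℝ) * inner ℝ x (J p) = 0 := by linarith
      exact (mul_eq_zero.1 h5).resolve_left hxx'
  have q2 : (inner ℝ y (J r) : ℝ) = 0 := by
    have h := congrArg (fun z => (inner ℝ (J y) z : ℝ)) py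
    simp only [inner_smul_right, inner_add_right, hJyy, hJyx] at h
    simp only [JJ_left hJ] at h
    rw [hyJy, hyJx] at h
    by_cases hy : y = 0
    · rw [hy, inner_zero_left]
    · have hyy' : (inner ℝ y y : ℝ) ≠ 0 := inner_self_ne_zero.2 hy
      have h5 : (inner ℝ y y : ℝ) * inner ℝ y (J r) = 0 := by linarith
      exact (mul_eq_zero.1 h5).resolve_left hyy'
  have hpy : (inner ℝ p y : ℝ) = inner ℝ y p := real_inner_comm _ _
  have hpJy : (inner ℝ p (J y) : ℝ) = inner ℝ (J y) p := real_inner_comm _ _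
  have q3 : (inner ℝ y p : ℝ) = 0 := by
    have h := congrArg (fun z => (inner ℝ y z : ℝ)) px
    simp only [inner_smul_right, inner_add_right, hyx, hyJx, hyJy] at h
    rw [hpy] at t2
    have h5 : (inner ℝ x x + inner ℝ y y : ℝ) * inner ℝ y p = 0 := by
      linear_combination h + (inner ℝ y y : ℝ) * t2
    rw [hxx, hyy, hn, one_mul] at h5
    exact h5
  have q4 : (inner ℝ x r : ℝ) = 0 := by
    rw [hpy, q3] at t2
    linarith
  have hJyp : (inner ℝ (J y) p : ℝ) = 0 := by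
    have h := congrArg (fun z => (inner ℝ (J y) z : ℝ)) px
    simp only [inner_smul_right, inner_add_right, hJyx, hJyy] at h
    have e1 : (inner ℝ (J y) x : ℝ) = 0 := by rw [real_inner_comm]; exact h2
    have e2 : (inner ℝ (J y) y : ℝ) = 0 := by rw [real_inner_comm]; exact hyJy
    rw [e1, e2] at h
    rw [hpJy] at t3
    have h5 : (inner ℝ x x + inner ℝ y y : ℝ) * inner ℝ (J y) p = 0 := by
      linear_combination h + (inner ℝ y y : ℝ) * t3
    rw [hxx, hyy, hn, one_mul] at h5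
    exact h5
  have q5 : (inner ℝ x (J r) : ℝ) = 0 := by
    rw [hpJy, hJyp] at t3
    linarith
  have q6 : (inner ℝ y (J p) : ℝ) = 0 := by
    rw [JJ_left hJ] at hJyp
    linarith
  rw [q4, q1, q5, zero_smul, zero_smul, zero_smul, add_zero, add_zero, add_zero] at px
  rw [q3, q6, q2, zero_smul, zero_smul, zero_smul, zero_add, add_zero, add_zero] at py
  by_cases hx0 : x = 0
  · have hy0 : y ≠ 0 := by
      rintro rfl
      rw [hx0] at hn
      simp at hn
    have hyy' : (inner ℝ y y : ℝ) ≠ 0 := inner_self_ne_zero.2 hy0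
    obtain ⟨u, e, hu, he, hue, huJ, ⟨a, ha⟩, ⟨b, hb⟩⟩ := exists_axesJ hJ h4 hy0 q3 q6
    have hr : r = ((inner ℝ y r : ℝ) / inner ℝ y y) • y := by
      rw [div_eq_inv_mul, ← smul_smul, ← py, smul_smul, inv_mul_cancel₀ hyy', one_smul]
    refine ⟨e, u, he, hu, by rw [real_inner_comm]; exact hue, ?_, ⟨0, b, ?_, hb⟩,
      ⟨a, ((inner ℝ y r : ℝ) / inner ℝ y y) * a, ha, ?_⟩⟩
    · rw [real_inner_comm, JJ_left hJ, huJ, neg_zero]
    · rw [hx0, zero_smul]
    · conv_lhs => rw [hr]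
      rw [← smul_smul, ← ha]
  · have hxx' : (inner ℝ x x : ℝ) ≠ 0 := inner_self_ne_zero.2 hx0
    have hp : p = ((inner ℝ x p : ℝ) / inner ℝ x x) • x := by
      rw [div_eq_inv_mul, ← smul_smul, ← px, smul_smul, inv_mul_cancel₀ hxx', one_smul]
    by_cases hy0 : y = 0
    · obtain ⟨e, u, he, hu, heu, heJ, ⟨a, ha⟩, ⟨b, hb⟩⟩ := exists_axesJ hJ h4 hx0 q4 q5
      refine ⟨e, u, he, hu, heu, heJ, ⟨a, ((inner ℝ x p : ℝ) / inner ℝ x x) * a, ha, ?_⟩,
        ⟨0, b, ?_, hb⟩⟩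
      · conv_lhs => rw [hp]
        rw [← smul_smul, ← ha]
      · rw [hy0, zero_smul]
    · have hyy' : (inner ℝ y y : ℝ) ≠ 0 := inner_self_ne_zero.2 hy0
      have hr : r = ((inner ℝ y r : ℝ) / inner ℝ y y) • y := by
        rw [div_eq_inv_mul, ← smul_smul, ← py, smul_smul, inv_mul_cancel₀ hyy', one_smul]
      obtain ⟨e, u, he, hu, heu, heJ, ⟨a, ha⟩, ⟨b, hb⟩⟩ := exists_axesJ hJ h4 hx0 h1 h2
      refine ⟨e, u, he, hu, heu, heJ, ⟨a, ((inner ℝ x p : ℝ) / inner ℝ x x) * a, ha, ?_⟩,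
        ⟨b, ((inner ℝ y r : ℝ) / inner ℝ y y) * b, hb, ?_⟩⟩
      · conv_lhs => rw [hp]
        rw [← smul_smul, ← ha]
      · conv_lhs => rw [hr]
        rw [← smul_smul, ← hb]

end Vale.Agent.P220.R2.H3
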